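import Vale.Agent.P127.Core
import Vale.Agent.P127.Defs

/-!
# P127: Kakeya sets with a choice of segments that is Lipschitz at many directions
-/

namespace Vale.Agent.Results.P127.LipschitzChoice

open MeasureTheory Metric Set
open Vale.P127 (V Dir surf Segs PtLip)

/-- Let `K ⊆ ℝ^n`.

(1) If `K` contains a unit segment `a e + [0,1] e` for every `e` in a set `D` of directions of
positive (outer) surface measure, and the choice `a` is pointwise Lipschitz, relative to `D`, at
every `e ∈ D`, then `K` has positive Lebesgue measure and Hausdorff dimension `n`.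

(2) If `K` is a Kakeya set that is Lebesgue null or has Hausdorff dimension `< n`, then every choice
of its segments is, at almost every direction `e`, not pointwise Lipschitz:
`limsup_{e' → e} |a e' - a e| / |e' - e| = ∞`. -/
theorem result (n : ℕ) (K : Set (V n)) :
    (∀ (D : Set (Dir n)) (a : Dir n → V n), surf n D ≠ 0 → Segs K D a →
      (∀ e ∈ D, PtLip D a e) → 0 < volume K ∧ dimH K = n) ∧
    (volume K = 0 ∨ dimH K < n → ∀ a : Dir n → V n, Segs K univ a →
      ∀ᵐ e ∂(surf n), ¬ PtLip univ a e) := by
  have h1 : ∀ (D : Set (Dir n)) (a : Dir n → V n), surf n D ≠ 0 → Segs K D a →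
      (∀ e ∈ D, PtLip D a e) → 0 < volume K ∧ dimH K = n := by
    intro D a hpos hK ha
    have := Vale.P127.pointwise volume K D hpos a ha
      fun e he t ht => hK e he t (Ioo_subset_Icc_self ht)
    rwa [finrank_euclideanSpace_fin] at this
  refine ⟨h1, fun hsmall a hK => ?_⟩
  rw [ae_iff]
  by_contra hne
  have := h1 _ a hne (fun e _ => hK e (mem_univ e)) ?_
  · rcases hsmall with h | h
    · exact this.1.ne' h
    · exact h.ne this.2
  · intro e he
    simp only [mem_ofPred_eq, not_not] at he
    obtain ⟨L, r, hr, h⟩ := he
    exact ⟨L, r, hr, fun e' _ hd => h e' (mem_univ e') hd⟩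

end Vale.Agent.Results.P127.LipschitzChoice
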